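import Vale.Agent.P183.H238.Reduce2

/-!
Extensions of representable lattices whose fibres are distributive or intervals `[H, G]` of finite
groups, with tight links between the fibres.
-/

namespace Vale.Agent.Results.P183.TightLinks

open Vale.Agent.P183 Vale.Agent.P183.H330D Vale.Agent.P183.H330M Vale.Agent.P183.H238

theorem result :
    -- (1) extensions with tight fibres above, for the given or for the dual orders
    (∀ (L K : Type) [Lattice L] [Finite L] [Lattice K] (f : LatticeHom L K),
      Function.Surjective f → Representable K →
      TightAbove f ∨ TightAbove (LatticeHom.dual f) → Representable L) ∧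
    -- (2) the fibres over an antichain are arbitrary group intervals, the other ones are chains
    (∀ (L K : Type) [Lattice L] [Finite L] [Lattice K] (f : LatticeHom L K) (T : Set K),
      Function.Surjective f → Representable K → IsAntichain (· ≤ ·) T →
      (∀ t ∈ T, IsGroupInterval {l : L // f l = t}) →
      (∀ t, t ∉ T → ∀ x y, f x = t → f y = t → x ≤ y ∨ y ≤ x) → Representable L) ∧
    -- (3) fibres with at most five elements over a chain
    (∀ (L K : Type) [Lattice L] [Finite L] [Nonempty L] [Lattice K] (f : LatticeHom L K),
      Function.Surjective f → (∀ p q : K, p ≤ q ∨ q ≤ p) →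
      (∀ t, {l : L | f l = t}.ncard ≤ 5) → Representable L) ∧
    -- (4) the problem is equivalent to its restriction to the irreducible lattices
    ((∀ (L : Type) [Lattice L] [Finite L] [Nonempty L], Representable L) ↔
      ∀ (L : Type) [Lattice L] [Finite L] [Nonempty L], TightIrreducible L → Representable L) :=
  ⟨fun _ _ _ _ _ f hf hK h => h.elim (ext_above f hf hK) (ext_above_dual f hf hK),
    fun _ _ _ _ _ f T hf hK hT h2 h3 => ext_above f hf hK (above_of_antichain hf T hT h2 h3),
    fun _ _ _ _ _ _ f hf hch h5 => over_chain_five f hf hch h5,
    H238.reduction⟩

end Vale.Agent.Results.P183.TightLinks
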