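import Vale.Agent.P183.H552.Fin510
import Vale.Agent.P183.H552.Std

/-!
Lattices with at most eight elements: two possible exceptions. Three new intervals in subgroup
lattices of finite groups.
-/

namespace Vale.Agent.Results.P183.TwoExceptions

open Vale.Agent.P183 Vale.Agent.P183.H552 Vale.Agent.P183.H996

theorem result :
    -- (1) all lattices with at most eight elements are representable, with at most two possible
    -- exceptions up to isomorphism and duality
    (∀ (L : Type) [Lattice L] [Finite L] [Nonempty L], Nat.card L ≤ 8 →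
      Representable L ∨ ∃ i < 2, Nonempty (L ≃o Ord8 (exc3 i)) ∨
        Nonempty (L ≃o (Ord8 (exc3 i))ᵒᵈ)) ∧
    -- (2) the case of at most eight elements is equivalent to these two lattices
    ((∀ (L : Type) [Lattice L] [Finite L] [Nonempty L], Nat.card L ≤ 8 → Representable L) ↔
      ∀ i < 2, Representable (Ord8 (exc3 i))) ∧
    -- (3) the lattice with the two fences `1 < 5, 6` and `2 < 3, 4`, its dual, and the lattice with
    -- the middle part `1, 2 < 3 < 4, 5` and `6` are representable, and they are intervals in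
    -- subgroup lattices of finite groups
    (Representable (Ord8 twoV) ∧ Representable (Ord8 twoVd) ∧ Representable (Ord8 (exc3 2)) ∧
      GroupInterval (Ord8 twoV) ∧ GroupInterval (Ord8 twoVd) ∧ GroupInterval (Ord8 (exc3 2)) ∧
      Nonempty (Ord8 twoV ≃o (Ord8 twoVd)ᵒᵈ)) ∧
    -- (4) the second one is an interval in the subgroup lattice of `SL(2, 343)`
    (∀ (F : Type) [Field F], Nat.card F = 343 →
      ∃ H : Subgroup (Matrix.SpecialLinearGroup (Fin 2) F),
        (∀ A : Matrix.SpecialLinearGroup (Fin 2) F, A ∈ H ↔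
          (A.1 0 1 = 0 ∧ A.1 1 0 = 0 ∧ A.1 0 0 ^ 6 = 1) ∨
            (A.1 0 0 = 0 ∧ A.1 1 1 = 0 ∧ A.1 0 1 ^ 6 = 1)) ∧
        Nonempty (Ord8 twoVd ≃o
          {S : Subgroup (Matrix.SpecialLinearGroup (Fin 2) F) // H ≤ S})) :=
  ⟨fun L _ _ _ h => two_exceptions rep_exc L h, eight_iff_two rep_exc,
    ⟨GroupInterval.rep gi_twoV, GroupInterval.rep gi_twoVd, rep_exc, gi_twoV, gi_twoVd, gi_exc,
      dual_twoV⟩,
    fun F _ hF => interval_std F hF⟩

end Vale.Agent.Results.P183.TwoExceptions
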